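import Vale.Agent.P254V.VDefs

/-! The determinant. Put `τ = ∑ i ∈ Ps a, a i`, `c k = max (a k) 0 / τ`, `s = 1 + a`, `C = 1 + vecMulVec a a - vecMulVec c c`.
Entrywise `(Bm a i * M0 * (Bm a i)ᵀ) k l = δ k l - δ k i δ l i + a k a l + (s k - δ k i) (s l - δ l i)`, so the sum is `τ • (C + vecMulVec μ μ)` with `μ = s - c = C *ᵥ 1`;
`C + μ μᵀ = C * (1 + vecMulVec 1 μ)`, `det (1 + vecMulVec 1 μ) = 1 + ∑ μ = N + 1` (`det_one_add_replicateCol_mul_replicateRow`, `vecMulVec_eq`);
`det C = (1 + a·a) (1 - c·c) + (a·c) ^ 2` (`C = 1 + U * W` with `U : N × 2`, `det_one_add_mul_comm`, `det_fin_two`), and with `p = ∑ max (a k) 0 ^ 2`, `q = ∑ min (a k) 0 ^ 2`: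
`a·a = p + q`, `c·c = p / τ ^ 2`, `a·c = p / τ`. -/

open MeasureTheory Set Matrix Real

noncomputable section

namespace Vale.Agent.P254L

variable {N : ℕ} {a : R N}

theorem valg_row (a : R N) (i k : Fin N) :
    ∑ m, Bm a i k m = 1 + a k - (if k = i then 1 else 0) := by
  rw [← Finset.add_sum_erase _ _ (Finset.mem_univ i)]
  have h1 : ∑ m ∈ Finset.univ.erase i, Bm a i k m =
      ∑ m ∈ Finset.univ.erase i, (if k = m then (1 : ℝ) else 0) :=
    Finset.sum_congr rfl fun m hm => by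
      simp only [Bm, updateCol_ne (Finset.ne_of_mem_erase hm), one_apply]
  rw [h1, Finset.sum_ite_eq]
  by_cases h : k = i <;> simp [Bm, h]
  ring

theorem valg_sq (a : R N) (i k l : Fin N) :
    ∑ m, Bm a i k m * Bm a i l m = (if k = l then 1 else 0) -
      (if k = i then 1 else 0) * (if l = i then 1 else 0) + a k * a l := by
  rw [← Finset.add_sum_erase _ _ (Finset.mem_univ i)]
  have h1 : ∑ m ∈ Finset.univ.erase i, Bm a i k m * Bm a i l m =
      ∑ m ∈ Finset.univ.erase i, (if k = m then (if l = m then (1 : ℝ) else 0) else 0) :=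
    Finset.sum_congr rfl fun m hm => by
      simp only [Bm, updateCol_ne (Finset.ne_of_mem_erase hm), one_apply]
      by_cases h : k = m <;> simp [h]
  rw [h1, Finset.sum_ite_eq]
  by_cases h : k = i
  · by_cases h' : l = i
    · simp [Bm, h, h']
    · have h2 : ¬ i = l := fun e => h' e.symm
      simp [Bm, h, h', h2]
  · by_cases h' : l = k
    · simp [Bm, h, h']
      ring
    · have h2 : ¬ k = l := fun e => h' e.symm
      simp [Bm, h, h', h2]

theorem valg_entry (a : R N) (i k l : Fin N) :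
    (Bm a i * M0 N * (Bm a i)ᵀ) k l = (if k = l then 1 else 0) -
      (if k = i then 1 else 0) * (if l = i then 1 else 0) + a k * a l +
      (1 + a k - (if k = i then 1 else 0)) * (1 + a l - (if l = i then 1 else 0)) := by
  rw [← valg_sq, ← valg_row, ← valg_row, M0, Matrix.mul_add, Matrix.mul_one, Matrix.add_mul,
    Matrix.add_apply, Finset.mul_sum]
  simp only [Matrix.mul_apply, transpose_apply, of_apply, mul_one]

theorem valg_pos (a : R N) (k : Fin N) :
    ∑ i ∈ Ps a, a i * (if k = i then 1 else 0) = max (a k) 0 := by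
  simp only [mul_ite, mul_one, mul_zero, Finset.sum_ite_eq, Ps, Finset.mem_filter, Finset.mem_univ,
    true_and]
  split_ifs with h
  · exact (max_eq_left h.le).symm
  · exact (max_eq_right (not_lt.1 h)).symm

theorem valg_tau (a : R N) : ∑ i ∈ Ps a, a i = ∑ k, max (a k) 0 := by
  rw [Ps, Finset.sum_filter]
  refine Finset.sum_congr rfl fun k _ => ?_
  split_ifs with h
  · exact (max_eq_left h.le).symm
  · exact (max_eq_right (not_lt.1 h)).symm

theorem valg_detC (a c : R N) :
    (1 + vecMulVec a a - vecMulVec c c : Matrix (Fin N) (Fin N) ℝ).det =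
      (1 + ∑ k, a k * a k) * (1 - ∑ k, c k * c k) + (∑ k, a k * c k) ^ 2 := by
  have h : (1 + vecMulVec a a - vecMulVec c c : Matrix (Fin N) (Fin N) ℝ) =
      1 + (Matrix.of fun (k : Fin N) (j : Fin 2) => (![a k, c k] : Fin 2 → ℝ) j) *
        (Matrix.of fun (j : Fin 2) (k : Fin N) => (![a k, -c k] : Fin 2 → ℝ) j) := by
    ext k l
    simp only [Matrix.sub_apply, Matrix.add_apply, vecMulVec_apply, Matrix.mul_apply, of_apply,
      Fin.sum_univ_two, Matrix.cons_val_zero, Matrix.cons_val_one]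
    ring
  rw [h, det_one_add_mul_comm, det_fin_two]
  simp only [Matrix.add_apply, Matrix.mul_apply, of_apply, Matrix.cons_val_zero,
    Matrix.cons_val_one, one_apply_eq, neg_mul, Finset.sum_neg_distrib]
  rw [one_apply_ne (by decide), one_apply_ne (by decide)]
  have h2 : ∑ k, c k * a k = ∑ k, a k * c k := Finset.sum_congr rfl fun k _ => mul_comm _ _
  rw [h2]
  ring

theorem valg_det1 (μ : R N) :
    (1 + vecMulVec (fun _ => (1 : ℝ)) μ : Matrix (Fin N) (Fin N) ℝ).det = 1 + ∑ k, μ k := by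
  rw [vecMulVec_eq Unit, det_one_add_replicateCol_mul_replicateRow]
  simp [dotProduct]

theorem va_det (ha : ∑ k, a k = 1) :
    (∑ i ∈ Ps a, a i • (Bm a i * M0 N * (Bm a i)ᵀ)).det = (∑ i ∈ Ps a, a i) ^ N * (N + 1) *
      ((1 + ∑ k, min (a k) 0 ^ 2) + (∑ k, max (a k) 0 ^ 2) *
        (1 - (1 + ∑ k, min (a k) 0 ^ 2) / (∑ i ∈ Ps a, a i) ^ 2)) := by
  obtain ⟨τ, hτ⟩ : ∃ τ, τ = ∑ i ∈ Ps a, a i := ⟨_, rfl⟩
  have ht : 0 < τ := by
    rw [hτ, valg_tau]
    exact lt_of_lt_of_le (ha ▸ one_pos) (Finset.sum_le_sum fun k _ => le_max_left _ _)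
  obtain ⟨c, hc⟩ : ∃ c : R N, ∀ k, c k = max (a k) 0 / τ := ⟨_, fun _ => rfl⟩
  have hc' : ∀ k, max (a k) 0 = τ * c k := fun k => by
    rw [hc, mul_div_cancel₀ _ ht.ne']
  have hc1 : ∑ k, c k = 1 := by
    simp only [hc]
    rw [← Finset.sum_div, ← valg_tau, ← hτ, div_self ht.ne']
  have hM : ∑ i ∈ Ps a, a i • (Bm a i * M0 N * (Bm a i)ᵀ) =
      τ • ((1 + vecMulVec a a - vecMulVec c c : Matrix (Fin N) (Fin N) ℝ) *
        (1 + vecMulVec (fun _ => (1 : ℝ)) fun k => 1 + a k - c k)) := by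
    ext k l
    have h1 : ∑ m, (1 + vecMulVec a a - vecMulVec c c : Matrix (Fin N) (Fin N) ℝ) k m =
        1 + a k - c k := by
      simp only [Matrix.sub_apply, Matrix.add_apply, vecMulVec_apply, Finset.sum_sub_distrib,
        Finset.sum_add_distrib, ← Finset.mul_sum, ha, hc1, one_apply, Finset.sum_ite_eq,
        Finset.mem_univ, if_true, mul_one]
    rw [Matrix.mul_add, Matrix.mul_one, Matrix.smul_apply, Matrix.add_apply, Matrix.mul_apply]
    simp only [vecMulVec_apply (fun _ => (1 : ℝ)), one_mul]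
    rw [← Finset.sum_mul, h1, Matrix.sum_apply]
    have h2 : ∀ i ∈ Ps a, (a i • (Bm a i * M0 N * (Bm a i)ᵀ)) k l =
        a i * ((if k = l then 1 else 0) + a k * a l + (1 + a k) * (1 + a l)) -
          (1 + a k) * (a i * (if l = i then 1 else 0)) -
          (1 + a l) * (a i * (if k = i then 1 else 0)) := fun i _ => by
      rw [Matrix.smul_apply, valg_entry, smul_eq_mul]
      ring
    rw [Finset.sum_congr rfl h2, Finset.sum_sub_distrib, Finset.sum_sub_distrib, ← Finset.sum_mul,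
      ← Finset.mul_sum, ← Finset.mul_sum, valg_pos, valg_pos, ← hτ, hc', hc']
    simp only [Matrix.sub_apply, Matrix.add_apply, vecMulVec_apply, one_apply, smul_eq_mul]
    ring
  have e1 : ∑ k, a k * a k = ∑ k, max (a k) 0 ^ 2 + ∑ k, min (a k) 0 ^ 2 := by
    rw [← Finset.sum_add_distrib]
    refine Finset.sum_congr rfl fun k _ => ?_
    rcases le_total (a k) 0 with h | h
    · rw [max_eq_right h, min_eq_left h]
      ring
    · rw [max_eq_left h, min_eq_right h]
      ring
  have e2 : ∑ k, c k * c k = (∑ k, max (a k) 0 ^ 2) / τ ^ 2 := by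
    rw [Finset.sum_div]
    refine Finset.sum_congr rfl fun k _ => ?_
    rw [hc, div_mul_div_comm, ← sq, ← sq]
  have e3 : ∑ k, a k * c k = (∑ k, max (a k) 0 ^ 2) / τ := by
    rw [Finset.sum_div]
    refine Finset.sum_congr rfl fun k _ => ?_
    rw [hc]
    rcases le_total (a k) 0 with h | h
    · rw [max_eq_right h]
      simp
    · rw [max_eq_left h]
      ring
  have e4 : ∑ k, (1 + a k - c k) = N := by
    rw [Finset.sum_sub_distrib, Finset.sum_add_distrib, ha, hc1]
    simp
  rw [hM, det_smul, det_mul, valg_detC, valg_det1, ← hτ, e1, e2, e3, e4, Fintype.card_fin]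
  field_simp
  ring

end Vale.Agent.P254L
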