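import Vale.Agent.P254V.VDefs

/-! Triangulation. `Bm a i *ᵥ w = w - w i • Pi.single i 1 + w i • a`. `va_cover`: for `x = w + t • a` take `i ∈ Ps a` (nonempty as `∑ a = 1`) minimising `w i / a i = s`
(`Finset.exists_min_image`); `x = (w - s • a) + (t + s) • a`, and `w - s • a ∈ O` has coordinate `i` equal to `0`.
`bm_disj`: if `Bm a i *ᵥ w = Bm a j *ᵥ w'`, compare coordinates `i` and `j`: `w i * a i = w' i + w' j * a i`, `w j + w i * a j = w' j * a j`, so `w i = w' j`, `w j = 0`:
the intersection lies in the image under `A * Bm a i` of the hyperplane `{w | w j = 0}`, a proper submodule (`Measure.addHaar_submodule`; or null sets under linear maps,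
`Measure.addHaar_image_linearMap`, `Measure.pi_hyperplane`). -/

open MeasureTheory Set Matrix Real

noncomputable section

namespace Vale.Agent.P254L

variable {N : ℕ} {a : R N}

theorem vcov_mv (a : R N) (i : Fin N) (w : R N) (k : Fin N) :
    (Bm a i *ᵥ w) k = (if k = i then 0 else w k) + w i * a k := by
  have e : ∀ j, Bm a i k j * w j =
      (if j = k then (if k = i then 0 else w k) else 0) + if j = i then w i * a k else 0 := by
    intro j
    rw [Bm, updateCol_apply, one_apply]
    by_cases h1 : j = i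
    · subst h1
      by_cases h2 : j = k
      · subst h2
        simp [mul_comm]
      · simp [h2, mul_comm]
    · by_cases h2 : j = k
      · subst h2
        simp [h1]
      · simp [h1, h2, Ne.symm h2]
  simp only [mulVec, dotProduct, e, Finset.sum_add_distrib, Finset.sum_ite_eq', Finset.mem_univ,
    if_true]

theorem bm_det (a : R N) (i : Fin N) : (Bm a i).det = a i := by
  rw [Bm, ← cramer_apply, cramer_one]
  rfl

theorem bm_row (ha : ∑ k, a k = 1) (i : Fin N) : (1 : R N) ᵥ* Bm a i = 1 := by
  funext j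
  simp only [vecMul, dotProduct, Bm, updateCol_apply, Pi.one_apply, one_mul]
  by_cases h : j = i
  · simp [h, ha]
  · simp [h, one_apply]

theorem va_cover (ha : ∑ k, a k = 1) :
    Va a = ⋃ i ∈ Ps a, (fun x => Bm a i *ᵥ x) '' O N := by
  ext x
  simp only [mem_iUnion, mem_image, exists_prop]
  constructor
  · rintro ⟨w, hw, t, ht, rfl⟩
    have hne : (Ps a).Nonempty := by
      obtain ⟨i, -, hi⟩ := Finset.exists_lt_of_sum_lt (s := Finset.univ) (f := fun _ => (0 : ℝ))
        (g := a) (by rw [ha]; simp)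
      exact ⟨i, Finset.mem_filter.2 ⟨Finset.mem_univ _, hi⟩⟩
    obtain ⟨i, hi, hmin⟩ := Finset.exists_min_image (Ps a) (fun k => w k / a k) hne
    have hi0 : 0 < a i := (Finset.mem_filter.1 hi).2
    have hs : 0 ≤ w i / a i := div_nonneg (hw i) hi0.le
    refine ⟨i, hi, fun k => if k = i then t + w i / a i else w k - w i / a i * a k, fun k => ?_, ?_⟩
    · dsimp only
      split_ifs
      · exact add_nonneg ht hs
      · rcases le_or_gt (a k) 0 with h | h
        · exact sub_nonneg.2 ((mul_nonpos_of_nonneg_of_nonpos hs h).trans (hw k))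
        · exact sub_nonneg.2 ((le_div_iff₀ h).1
            (hmin k (Finset.mem_filter.2 ⟨Finset.mem_univ _, h⟩)))
    · funext k
      rw [vcov_mv, if_pos rfl, Pi.add_apply, Pi.smul_apply, smul_eq_mul]
      split_ifs with h
      · subst h
        field_simp
        ring
      · ring
  · rintro ⟨i, -, w, hw, rfl⟩
    refine ⟨fun k => if k = i then 0 else w k, fun k => ?_, w i, hw i, funext fun k => ?_⟩
    · dsimp only
      split_ifs
      · exact le_rfl
      · exact hw k
    · rw [vcov_mv]
      rfl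

theorem va_nonneg (h : ∀ k, 0 ≤ a k) : Va a = O N := by
  ext x
  constructor
  · rintro ⟨w, hw, t, ht, rfl⟩ k
    exact add_nonneg (hw k) (mul_nonneg ht (h k))
  · exact fun hx => ⟨x, hx, 0, le_rfl, by simp⟩

theorem vcov_img (B : Matrix (Fin N) (Fin N) ℝ) (s : Set (R N)) :
    volume ((fun x => B *ᵥ x) '' s) = ENNReal.ofReal |B.det| * volume s := by
  rw [← LinearMap.det_toLin' B]
  exact Measure.addHaar_image_linearMap volume (toLin' B) s

theorem bm_disj (A : Matrix (Fin N) (Fin N) ℝ) {i j : Fin N} (hi : i ∈ Ps a) (hj : j ∈ Ps a)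
    (hij : i ≠ j) : AEDisjoint volume ((fun x => (A * Bm a i) *ᵥ x) '' O N)
      ((fun x => (A * Bm a j) *ᵥ x) '' O N) := by
  have hi0 : 0 < a i := (Finset.mem_filter.1 hi).2
  have hj0 : 0 < a j := (Finset.mem_filter.1 hj).2
  by_cases hA : A.det = 0
  · refine measure_mono_null inter_subset_left ?_
    rw [vcov_img, det_mul, hA]
    simp
  refine measure_mono_null (t := (fun x => (A * Bm a i) *ᵥ x) '' {w | w j = 0}) ?_ ?_
  · rintro x ⟨⟨w, hw, rfl⟩, w', hw', e⟩
    refine ⟨w, ?_, rfl⟩
    have e1 : Bm a j *ᵥ w' - Bm a i *ᵥ w = 0 := by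
      refine eq_zero_of_mulVec_eq_zero hA ?_
      rw [mulVec_sub, mulVec_mulVec, mulVec_mulVec]
      exact sub_eq_zero.2 e
    have e2 := congrFun (sub_eq_zero.1 e1) i
    have e3 := congrFun (sub_eq_zero.1 e1) j
    rw [vcov_mv, vcov_mv, if_neg hij, if_pos rfl] at e2
    rw [vcov_mv, vcov_mv, if_neg hij.symm, if_pos rfl] at e3
    have h1 : w' j ≤ w i := le_of_mul_le_mul_right (by linarith [hw' i]) hi0
    exact le_antisymm (by nlinarith) (hw j)
  · have h0 : volume {w : R N | w j = 0} = 0 := Measure.pi_hyperplane _ j 0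
    rw [vcov_img, h0, mul_zero]

end Vale.Agent.P254L
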