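import Vale.Agent.P254L.Main

/-! Polytopes with `n + 2` vertices: definitions. FROZEN. -/

open MeasureTheory Set Matrix Real

noncomputable section

namespace Vale.Agent.P254L

variable {N : ℕ}

/-- the identity with the column `i` replaced by `a` -/
def Bm (a : R N) (i : Fin N) : Matrix (Fin N) (Fin N) ℝ := (1 : Matrix (Fin N) (Fin N) ℝ).updateCol i a

/-- the cone generated by the orthant and `a` -/
def Va (a : R N) : Set (R N) := {x | ∃ w ∈ O N, ∃ t : ℝ, 0 ≤ t ∧ x = w + t • a}

/-- the indices of the positive entries -/
def Ps (a : R N) : Finset (Fin N) := Finset.univ.filter fun i => 0 < a i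

/-- the second moments of the orthant -/
def M0 (N : ℕ) : Matrix (Fin N) (Fin N) ℝ := 1 + Matrix.of fun _ _ => 1

end Vale.Agent.P254L
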