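import Vale.Agent.P254V.VDefs

/-! Geometry. `exists_frame`: `exists_affineIndependent ℝ _ (s : Set _)` gives `t ⊆ s` affinely independent with the same span `⊤`
(`interior_convexHull_nonempty_iff_affineSpan_eq_top`), so `t` has `n + 1` elements (`AffineIndependent.affineSpan_eq_top_iff_card_eq_finrank_add_one`), enumerate it by `Fin (n + 1)`;
`s \ t` has at most one element `p` (if none, `p = v 0`). `cone_insert`: `convexHull_insert`, `cone_hull`; `hc` is affine: `hc (a • x + b • y) = a • hc x + b • hc y` for `a + b = 1`;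
conversely `cone` of a compact convex set is a convex cone (`cn_cone`) which contains `mt v *ᵥ w` (`w ∈ O`) and `hc p`. -/

open MeasureTheory Set Matrix Real

noncomputable section

namespace Vale.Agent.P254L

variable {n : ℕ}

theorem exists_frame (s : Finset (EuclideanSpace ℝ (Fin n))) (hs : s.card ≤ n + 2)
    (hi : (interior (convexHull ℝ (s : Set (EuclideanSpace ℝ (Fin n))))).Nonempty) :
    ∃ (v : Fin (n + 1) → EuclideanSpace ℝ (Fin n)) (p : EuclideanSpace ℝ (Fin n)),
      AffineIndependent ℝ v ∧ (s : Set (EuclideanSpace ℝ (Fin n))) = insert p (range v) := by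
  classical
  obtain ⟨t, hts, hsp, hind⟩ := exists_affineIndependent ℝ (EuclideanSpace ℝ (Fin n))
    (s : Set (EuclideanSpace ℝ (Fin n)))
  rw [interior_convexHull_nonempty_iff_affineSpan_eq_top.1 hi] at hsp
  lift t to Finset (EuclideanSpace ℝ (Fin n)) using s.finite_toSet.subset hts
  have hc : Fintype.card t = n + 1 := by
    have := hind.affineSpan_eq_top_iff_card_eq_finrank_add_one.1 (by rwa [Subtype.range_coe])
    rwa [finrank_euclideanSpace_fin] at this
  obtain ⟨e⟩ : Nonempty (Fin (n + 1) ≃ t) := ⟨(Fintype.equivFinOfCardEq hc).symm⟩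
  have hr : range (fun k => (e k : EuclideanSpace ℝ (Fin n))) = t := by
    ext x
    constructor
    · rintro ⟨k, rfl⟩
      exact (e k).2
    · intro hx
      exact ⟨e.symm ⟨x, hx⟩, by simp⟩
  have hv : AffineIndependent ℝ fun k => (e k : EuclideanSpace ℝ (Fin n)) :=
    hind.comp_embedding e.toEmbedding
  have hts' : t ⊆ s := Finset.coe_subset.1 hts
  rw [Fintype.card_coe] at hc
  have hd : (s \ t).card ≤ 1 := by
    rw [Finset.card_sdiff_of_subset hts']
    omega
  obtain ⟨p, hp, hp2⟩ : ∃ p ∈ s, ∀ x ∈ s \ t, x = p := by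
    rcases (s \ t).eq_empty_or_nonempty with h | ⟨p, hp⟩
    · exact ⟨e 0, hts' (e 0).2, fun x hx => by simp [h] at hx⟩
    · exact ⟨p, (Finset.mem_sdiff.1 hp).1, fun x hx => Finset.card_le_one.1 hd x hx p hp⟩
  refine ⟨_, p, hv, ?_⟩
  rw [hr]
  ext x
  constructor
  · intro hx
    by_cases h : x ∈ t
    · exact Or.inr h
    · exact Or.inl (hp2 x (Finset.mem_sdiff.2 ⟨hx, h⟩))
  · rintro (rfl | hx)
    · exact hp
    · exact hts hx

theorem vgeo_hc (x y : EuclideanSpace ℝ (Fin n)) {a b : ℝ} (h : a + b = 1) :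
    hc (a • x + b • y) = a • hc x + b • hc y := by
  funext i
  refine Fin.cases ?_ (fun j => ?_) i
  · simp [hc, h]
  · simp [hc]

theorem cone_insert (v : Fin (n + 1) → EuclideanSpace ℝ (Fin n)) (p : EuclideanSpace ℝ (Fin n))
    {a : R (n + 1)} (ha : mt v *ᵥ a = hc p) :
    cone (convexHull ℝ (insert p (range v))) = (fun x => mt v *ᵥ x) '' Va a := by
  ext X
  constructor
  · rintro ⟨s, hs, x, hx, rfl⟩
    rw [convexHull_insert (range_nonempty v), mem_convexJoin] at hx
    obtain ⟨q, hq, y, hy, α, β, hα, hβ, hab, rfl⟩ := hx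
    obtain rfl : q = p := hq
    have h1 : (s * β) • hc y ∈ cone (convexHull ℝ (range v)) := ⟨_, mul_nonneg hs hβ, y, hy, rfl⟩
    rw [cone_hull] at h1
    obtain ⟨w, hw, e⟩ := h1
    refine ⟨w + (s * α) • a, ⟨w, hw, _, mul_nonneg hs hα, rfl⟩, ?_⟩
    beta_reduce at e ⊢
    rw [mulVec_add, mulVec_smul, e, ha, vgeo_hc _ _ hab, smul_add, smul_smul, smul_smul]
    exact add_comm _ _
  · rintro ⟨_, ⟨w, hw, t, ht, rfl⟩, rfl⟩
    have hC := cn_cone (((finite_range v).insert p).isCompact_convexHull ℝ) (convex_convexHull ℝ _)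
    have h1 : mt v *ᵥ w ∈ cone (convexHull ℝ (range v)) := by
      rw [cone_hull]
      exact ⟨w, hw, rfl⟩
    obtain ⟨s, hs, y, hy, e⟩ := h1
    have h2 : mt v *ᵥ w ∈ cone (convexHull ℝ (insert p (range v))) :=
      ⟨s, hs, y, convexHull_mono (subset_insert _ _) hy, e⟩
    have h3 : t • hc p ∈ cone (convexHull ℝ (insert p (range v))) :=
      ⟨t, ht, p, subset_convexHull ℝ _ (mem_insert _ _), rfl⟩
    have h4 := hC.sm 2 (by norm_num) _
      (hC.cv h2 h3 (a := 1 / 2) (b := 1 / 2) (by norm_num) (by norm_num) (by norm_num))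
    rw [← smul_add, smul_smul, show (2 : ℝ) * (1 / 2) = 1 by norm_num, one_smul] at h4
    beta_reduce
    rw [mulVec_add, mulVec_smul, ha]
    exact h4

end Vale.Agent.P254L
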