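import Vale.Agent.P254V.VDefs

/-! With `τ = ∑ max (a k) 0 = 1 + σ`, `σ = ∑ -min (a k) 0 ≥ 0`: `τ ^ 2 - (1 + q) - p (1 - (1 + q) / τ ^ 2) = (τ ^ 2 - p) (1 - (1 + q) / τ ^ 2)`, `p ≤ τ ^ 2`, `q ≤ σ ^ 2`
(`Finset.sum_sq_le_sq_sum_of_nonneg`). If some `a k < 0` then `σ > 0` and `1 + q < τ ^ 2`; if two entries are positive then `p < τ ^ 2`. -/

open MeasureTheory Set Matrix Real

noncomputable section

namespace Vale.Agent.P254L

variable {N : ℕ} {a : R N}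

theorem vineq_max (a : R N) : ∑ i ∈ Ps a, a i = ∑ k, max (a k) 0 := by
  rw [Ps, Finset.sum_filter]
  refine Finset.sum_congr rfl fun k _ => ?_
  split_ifs with h
  · exact (max_eq_left h.le).symm
  · exact (max_eq_right (not_lt.1 h)).symm

theorem vineq_split (ha : ∑ k, a k = 1) : ∑ k, max (a k) 0 = 1 + ∑ k, -min (a k) 0 := by
  rw [← ha, ← Finset.sum_add_distrib]
  refine Finset.sum_congr rfl fun k _ => ?_
  have := max_add_min (a k) 0
  linarith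

theorem vineq_lt {i j : Fin N} (hi : 0 < a i) (hj : 0 < a j) (hij : i ≠ j) :
    ∑ k, max (a k) 0 ^ 2 < (∑ k, max (a k) 0) ^ 2 := by
  have h0 : ∀ k, 0 ≤ max (a k) 0 := fun k => le_max_right _ _
  rw [sq (∑ k, max (a k) 0), Finset.sum_mul]
  refine Finset.sum_lt_sum (fun k _ => ?_) ⟨i, Finset.mem_univ _, ?_⟩
  · rw [sq]
    exact mul_le_mul_of_nonneg_left
      (Finset.single_le_sum (f := fun k => max (a k) 0) (fun k _ => h0 k) (Finset.mem_univ k)) (h0 k)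
  · have h1 : ∑ k ∈ ({i, j} : Finset (Fin N)), max (a k) 0 ≤ ∑ k, max (a k) 0 :=
      Finset.sum_le_sum_of_subset_of_nonneg (Finset.subset_univ _) fun k _ _ => h0 k
    rw [Finset.sum_pair hij, max_eq_left hi.le, max_eq_left hj.le] at h1
    rw [sq, max_eq_left hi.le]
    exact mul_lt_mul_of_pos_left (by linarith) hi

theorem va_tau (ha : ∑ k, a k = 1) : 1 ≤ ∑ i ∈ Ps a, a i := by
  rw [vineq_max, vineq_split ha]
  exact le_add_of_nonneg_right (Finset.sum_nonneg fun k _ => neg_nonneg.2 (min_le_right _ _))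

theorem va_ineq (ha : ∑ k, a k = 1) :
    (1 + ∑ k, min (a k) 0 ^ 2) + (∑ k, max (a k) 0 ^ 2) *
        (1 - (1 + ∑ k, min (a k) 0 ^ 2) / (∑ i ∈ Ps a, a i) ^ 2) ≤ (∑ i ∈ Ps a, a i) ^ 2 ∧
    ((1 + ∑ k, min (a k) 0 ^ 2) + (∑ k, max (a k) 0 ^ 2) *
        (1 - (1 + ∑ k, min (a k) 0 ^ 2) / (∑ i ∈ Ps a, a i) ^ 2) = (∑ i ∈ Ps a, a i) ^ 2 →
      (∀ k, 0 ≤ a k) ∨ ∃ i, Ps a = {i}) := by
  have h1 := va_tau ha
  have hm : ∀ k, 0 ≤ -min (a k) 0 := fun k => neg_nonneg.2 (min_le_right _ _)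
  have hσ : 0 ≤ ∑ k, -min (a k) 0 := Finset.sum_nonneg fun k _ => hm k
  have hp : ∑ k, max (a k) 0 ^ 2 ≤ (∑ i ∈ Ps a, a i) ^ 2 := by
    rw [vineq_max]
    exact Finset.sum_sq_le_sq_sum_of_nonneg fun k _ => le_max_right _ _
  have hq : ∑ k, min (a k) 0 ^ 2 ≤ (∑ k, -min (a k) 0) ^ 2 := by
    have := Finset.sum_sq_le_sq_sum_of_nonneg (s := Finset.univ) (f := fun k => -min (a k) 0)
      fun k _ => hm k
    simpa only [neg_sq] using this
  have hτ : ∑ i ∈ Ps a, a i = 1 + ∑ k, -min (a k) 0 := by rw [vineq_max, vineq_split ha]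
  have hlt : ∀ i j, i ∈ Ps a → j ∈ Ps a → i ≠ j →
      ∑ k, max (a k) 0 ^ 2 < (∑ i ∈ Ps a, a i) ^ 2 := fun i j hi hj hij => by
    rw [vineq_max]
    exact vineq_lt (Finset.mem_filter.1 hi).2 (Finset.mem_filter.1 hj).2 hij
  have hne : (Ps a).Nonempty := by
    rw [Finset.nonempty_iff_ne_empty]
    intro h
    rw [h, Finset.sum_empty] at h1
    linarith
  have hz : ∑ k, -min (a k) 0 = 0 → ∀ k, 0 ≤ a k := fun h k => by
    have := (Finset.sum_eq_zero_iff_of_nonneg fun k _ => hm k).1 h k (Finset.mem_univ k)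
    have h2 := min_le_left (a k) 0
    linarith
  generalize ∑ i ∈ Ps a, a i = τ at *
  generalize ∑ k, -min (a k) 0 = σ at *
  generalize ∑ k, min (a k) 0 ^ 2 = q at *
  generalize ∑ k, max (a k) 0 ^ 2 = p at *
  have h2 : 0 < τ ^ 2 := by positivity
  have h3 : 1 + q + 2 * σ ≤ τ ^ 2 := by rw [hτ]; nlinarith
  have h4 : 0 ≤ 1 - (1 + q) / τ ^ 2 := sub_nonneg.2 ((div_le_one h2).2 (by linarith))
  have h5 : τ ^ 2 - ((1 + q) + p * (1 - (1 + q) / τ ^ 2)) = (τ ^ 2 - p) * (1 - (1 + q) / τ ^ 2) := by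
    field_simp
    ring
  refine ⟨sub_nonneg.1 (h5 ▸ mul_nonneg (sub_nonneg.2 hp) h4), fun he => ?_⟩
  rw [he, sub_self] at h5
  rcases mul_eq_zero.1 h5.symm with h6 | h6
  · obtain ⟨i, hi⟩ := hne
    refine Or.inr ⟨i, Finset.eq_singleton_iff_unique_mem.2 ⟨hi, fun j hj => by_contra fun hji => ?_⟩⟩
    have := hlt j i hj hi hji
    linarith
  · have h7 : (1 + q) / τ ^ 2 = 1 := by linarith
    rw [div_eq_one_iff_eq h2.ne'] at h7
    exact Or.inl (hz (by linarith))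

end Vale.Agent.P254L
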