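import Vale.Agent.P254V.VSum
import Vale.Agent.P254V.VAlg
import Vale.Agent.P254V.VIneq
import Vale.Agent.P254V.VGeo

/-! Polytopes with at most `n + 2` vertices. -/

open MeasureTheory Set Matrix Real

noncomputable section

namespace Vale.Agent.P254L

theorem va_iv {N : ℕ} {a y : R N} {A : Matrix (Fin N) (Fin N) ℝ} (ha : ∑ k, a k = 1)
    (hA : A.det ≠ 0) (hy : y ᵥ* A = 1) :
    iv ((fun x => A *ᵥ x) '' Va a) y ≤ N + 1 ∧ (iv ((fun x => A *ᵥ x) '' Va a) y = N + 1 →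
      ∃ Q : Matrix (Fin N) (Fin N) ℝ, Q.det ≠ 0 ∧ y ᵥ* Q = 1 ∧
        (fun x => A *ᵥ x) '' Va a = (fun x => Q *ᵥ x) '' O N) := by
  have t1 := va_tau ha
  obtain ⟨i1, i2⟩ := va_ineq ha
  have d0 : 0 < |A.det| := abs_pos.2 hA
  have e : iv ((fun x => A *ᵥ x) '' Va a) y = (N + 1) * (((1 + ∑ k, min (a k) 0 ^ 2)
      + (∑ k, max (a k) 0 ^ 2) * (1 - (1 + ∑ k, min (a k) 0 ^ 2) / (∑ i ∈ Ps a, a i) ^ 2))
        / (∑ i ∈ Ps a, a i) ^ 2) := by
    unfold iv
    rw [va_zz ha hA hy, va_mom ha hA hy, det_smul, det_mul, det_mul, det_transpose, va_det ha,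
      Fintype.card_fin]
    generalize ((1 + ∑ k, min (a k) 0 ^ 2) + (∑ k, max (a k) 0 ^ 2) *
      (1 - (1 + ∑ k, min (a k) 0 ^ 2) / (∑ i ∈ Ps a, a i) ^ 2)) = D
    generalize ∑ i ∈ Ps a, a i = τ at t1
    have t0 : τ ≠ 0 := by linarith
    have e2 : A.det * (τ ^ N * (N + 1) * D) * A.det = |A.det| ^ 2 * (τ ^ N * (N + 1) * D) := by
      rw [sq_abs]
      ring
    rw [e2]
    field_simp
    ring
  have p0 : 0 < (∑ i ∈ Ps a, a i) ^ 2 := by positivity
  have n0 : (0 : ℝ) < N + 1 := by positivity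
  rw [e]
  refine ⟨mul_le_of_le_one_right n0.le ((div_le_one p0).2 i1), fun h => ?_⟩
  have h2 := (div_eq_one_iff_eq p0.ne').1 (mul_left_cancel₀ n0.ne' (h.trans (mul_one _).symm))
  rcases i2 h2 with h3 | ⟨i, h3⟩
  · exact ⟨A, hA, hy, by rw [va_nonneg h3]⟩
  · have hi : i ∈ Ps a := by rw [h3]; exact Finset.mem_singleton_self i
    refine ⟨A * Bm a i, ?_, ?_, ?_⟩
    · rw [det_mul, bm_det]
      exact mul_ne_zero hA (Finset.mem_filter.1 hi).2.ne'
    · rw [← vecMul_vecMul, hy, bm_row ha]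
    · rw [va_cover ha, h3, ← main_img]
      simp

open Vale.Agent.P254 in
theorem few_vertices (n : ℕ) (hn : 1 ≤ n) (u : Fin (n + 1) → EuclideanSpace ℝ (Fin n))
    (hu : AffineIndependent ℝ u) (s : Finset (EuclideanSpace ℝ (Fin n))) (hs : s.card ≤ n + 2)
    (K : Set (EuclideanSpace ℝ (Fin n))) (hKs : K = convexHull ℝ s) (hi : (interior K).Nonempty) :
    isoConst K ≤ isoConst (convexHull ℝ (range u)) ∧
      (isoConst K = isoConst (convexHull ℝ (range u)) →
        ∃ w : Fin (n + 1) → EuclideanSpace ℝ (Fin n), AffineIndependent ℝ w ∧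
          K = convexHull ℝ (range w)) := by
  obtain ⟨v, p, hv, e⟩ := exists_frame s hs (hKs ▸ hi)
  have hK : IsCompact K := hKs ▸ s.finite_toSet.isCompact_convexHull ℝ
  have hS : IsCompact (convexHull ℝ (range u)) := (finite_range u).isCompact_convexHull ℝ
  rw [e] at hKs
  have k0 := vol_pos hv hK (hKs ▸ convexHull_mono (subset_insert _ _))
  have s0 := vol_pos hu hS Subset.rfl
  have uA : IsUnit (mt v).det := isUnit_iff_ne_zero.2 (mt_det hv)
  have ha : mt v *ᵥ ((mt v)⁻¹ *ᵥ hc p) = hc p := by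
    rw [mulVec_mulVec, mul_nonsing_inv _ uA, one_mulVec]
  have h1 : ∑ k, ((mt v)⁻¹ *ᵥ hc p) k = 1 := by
    have := congrArg (fun x => (Pi.single 0 1 : R (n + 1)) ⬝ᵥ x) ha
    simp only [dotProduct_mulVec, mt_row] at this
    rw [← dotProduct_mulVec, one_dotProduct, single_one_dotProduct] at this
    exact this
  obtain ⟨a1, a2⟩ := va_iv h1 (mt_det hv) (mt_row v)
  have e1 : ((n + 1 : ℕ) : ℝ) + 1 = iv (cone (convexHull ℝ (range u))) (Pi.single 0 1) := by
    rw [cone_hull, iv_lin (isClosed_O _).measurableSet Subset.rfl (mt_det hu) (mt_row u), iv_O]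
  rw [← cone_insert v p ha, ← hKs, e1, iv_cone hK k0, iv_cone hS s0] at a1 a2
  have c0 : (0 : ℝ) < ((n + 2).factorial : ℝ) ^ (n + 1) / (n.factorial : ℝ) ^ (n + 3) := by
    positivity
  have n0 : (0 : ℝ) < 1 / (2 * (n : ℝ)) := by
    have : (0 : ℝ) < n := by exact_mod_cast hn
    positivity
  have b1 : 0 ≤ (covMatrix K).det / volume.real K ^ 2 :=
    div_nonneg (det_cov_nonneg hK) (sq_nonneg _)
  have b2 : 0 ≤ (covMatrix (convexHull ℝ (range u))).det / volume.real (convexHull ℝ (range u)) ^ 2 :=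
    div_nonneg (det_cov_nonneg hS) (sq_nonneg _)
  unfold isoConst
  refine ⟨rpow_le_rpow b1 (le_of_mul_le_mul_left a1 c0) n0.le, fun he => ?_⟩
  obtain ⟨Q, q0, q1, q2⟩ := a2 (by rw [(rpow_left_inj b1 b2 n0.ne').1 he])
  exact eq_hull q0 q1 q2

open Vale.Agent.P254 in
theorem iso_simplex {n : ℕ} {u v : Fin (n + 1) → EuclideanSpace ℝ (Fin n)}
    (hu : AffineIndependent ℝ u) (hv : AffineIndependent ℝ v) :
    isoConst (convexHull ℝ (range u)) = isoConst (convexHull ℝ (range v)) := by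
  have key : ∀ w : Fin (n + 1) → EuclideanSpace ℝ (Fin n), AffineIndependent ℝ w →
      iv (O (n + 1)) 1 = ((n + 2).factorial : ℝ) ^ (n + 1) / (n.factorial : ℝ) ^ (n + 3) *
        ((covMatrix (convexHull ℝ (range w))).det / volume.real (convexHull ℝ (range w)) ^ 2) := by
    intro w hw
    have hS : IsCompact (convexHull ℝ (range w)) := (finite_range w).isCompact_convexHull ℝ
    rw [← iv_cone hS (vol_pos hw hS Subset.rfl), cone_hull,
      iv_lin (isClosed_O _).measurableSet Subset.rfl (mt_det hw) (mt_row w)]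
  have c0 : (0 : ℝ) < ((n + 2).factorial : ℝ) ^ (n + 1) / (n.factorial : ℝ) ^ (n + 3) := by
    positivity
  unfold isoConst
  rw [mul_left_cancel₀ c0.ne' ((key u hu).symm.trans (key v hv))]

end Vale.Agent.P254L
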