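import Vale.Agent.P254V.VDefs

/-! Moments of simplicial cones. Reuse the lemmas of `P254L/Lin.lean` and `P254L/DetLe.lean` (`mom (O N) 1 = M0 N`, `zz (O N) 1 = 1`: `int_Em`, `Em_mom`).
Integrability: `integrableOn_image_iff_integrableOn_abs_det_fderiv_smul`, `intOn_Em`, `Em_int`, `core_gr`, `core_sum`, `Gr.mul`. -/

open MeasureTheory Set Matrix Real

noncomputable section

namespace Vale.Agent.P254L

variable {N : ℕ} {Q : Matrix (Fin N) (Fin N) ℝ} {y : R N}

theorem vmom_prob (N : ℕ) : IsProbabilityMeasure (Em N) := by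
  unfold Em
  infer_instance

theorem vmom_zz (N : ℕ) : zz (O N) 1 = 1 := by
  have h := int_Em (N := N) fun _ => 1
  have := vmom_prob N
  simp only [one_mul, integral_const, probReal_univ, one_smul] at h
  simpa only [zz, one_dotProduct] using h.symm

theorem vmom_mom (N : ℕ) : mom (O N) 1 = M0 N := by
  ext i j
  have h := (int_Em (N := N) fun x => x i * x j).symm.trans (Em_mom i j)
  simp only [mom, M0, of_apply, one_dotProduct, h, Matrix.add_apply, Matrix.one_apply]
  split_ifs <;> norm_num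

theorem vmom_int (hQ : Q.det ≠ 0) {F : R N → ℝ}
    (h : IntegrableOn (fun x => F (Q *ᵥ x)) (O N)) :
    IntegrableOn F ((fun x => Q *ᵥ x) '' O N) :=
  (integrableOn_image_iff_integrableOn_abs_det_fderiv_smul volume (isClosed_O N).measurableSet
    (f := fun x => Q *ᵥ x) (f' := fun _ => LinearMap.toContinuousLinearMap (toLin' Q))
    (fun _ _ => (LinearMap.toContinuousLinearMap (toLin' Q)).hasFDerivWithinAt)
    (mulVec_injective_iff_isUnit.2 ((isUnit_iff_isUnit_det Q).2 hQ.isUnit)).injOn F).2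
    (h.const_mul _)

theorem simp_zz (hQ : Q.det ≠ 0) (hy : y ᵥ* Q = 1) :
    zz ((fun x => Q *ᵥ x) '' O N) y = |Q.det| := by
  rw [zz_lin (isClosed_O N).measurableSet hQ hy, vmom_zz, mul_one]

theorem simp_mom (hQ : Q.det ≠ 0) (hy : y ᵥ* Q = 1) :
    mom ((fun x => Q *ᵥ x) '' O N) y = |Q.det| • (Q * M0 N * Qᵀ) := by
  rw [lin_mom (isClosed_O N).measurableSet subset_rfl hQ hy, vmom_mom]

theorem simp_int0 (hQ : Q.det ≠ 0) (hy : y ᵥ* Q = 1) :
    IntegrableOn (fun x : R N => exp (-(y ⬝ᵥ x))) ((fun x => Q *ᵥ x) '' O N) := by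
  refine vmom_int hQ ?_
  have := vmom_prob N
  have h := intOn_Em (N := N) (integrable_const (1 : ℝ))
  simpa only [dotProduct_mulVec, hy, one_dotProduct, one_mul] using h

theorem simp_int2 (hQ : Q.det ≠ 0) (hy : y ᵥ* Q = 1) (i j : Fin N) :
    IntegrableOn (fun x : R N => x i * x j * exp (-(y ⬝ᵥ x))) ((fun x => Q *ᵥ x) '' O N) := by
  refine vmom_int hQ ?_
  have e : ∀ x : R N, (Q *ᵥ x) i * (Q *ᵥ x) j * exp (-(y ⬝ᵥ Q *ᵥ x)) =
      ∑ b, ∑ a, Q i a * (x a * x b * exp (-((1 : R N) ⬝ᵥ x))) * Q j b := fun x => by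
    rw [dotProduct_mulVec, hy]
    generalize exp (-((1 : R N) ⬝ᵥ x)) = t
    simp only [mulVec, dotProduct, Finset.sum_mul, Finset.mul_sum]
    exact Finset.sum_congr rfl fun b _ => Finset.sum_congr rfl fun a _ => by ring
  simp only [e]
  exact integrable_finsetSum _ fun b _ => integrable_finsetSum _ fun a _ =>
    ((lin_on subset_rfl a b).const_mul (Q i a)).mul_const (Q j b)

end Vale.Agent.P254L
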