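import Vale.Agent.P254V.VCov
import Vale.Agent.P254V.VMom

/-! Summation over the triangulation: `va_cover`, `image_iUnion₂`, `main_img`; integrals over a finite a.e. disjoint union (`integral_iUnion_ae` over the subtype `Ps a`, or Finset induction with
`integral_union_ae`); the pieces are closed (`Cn.map` for the cone `O N`); `|det (A * Bm a i)| = |det A| * a i`; `Matrix.mul_sum`, `transpose_mul`. -/

open MeasureTheory Set Matrix Real

noncomputable section

namespace Vale.Agent.P254L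

variable {N : ℕ} {a : R N} {A : Matrix (Fin N) (Fin N) ℝ} {y : R N}

theorem vsum_cn (N : ℕ) : Cn (O N) :=
  ⟨isClosed_O N, fun _ hx _ hz _ _ hs ht _ k => add_nonneg (mul_nonneg hs (hx k))
    (mul_nonneg ht (hz k)), fun _ ht _ hx k => mul_nonneg ht (hx k)⟩

theorem vsum_pos {i : Fin N} (hi : i ∈ Ps a) : 0 < a i := (Finset.mem_filter.1 hi).2

theorem vsum_det (hA : A.det ≠ 0) {i : Fin N} (hi : i ∈ Ps a) : (A * Bm a i).det ≠ 0 := by
  rw [det_mul, bm_det]
  exact mul_ne_zero hA (vsum_pos hi).ne'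

theorem vsum_abs {i : Fin N} (hi : i ∈ Ps a) : |(A * Bm a i).det| = |A.det| * a i := by
  rw [det_mul, bm_det, abs_mul, abs_of_pos (vsum_pos hi)]

theorem vsum_row (ha : ∑ k, a k = 1) (hy : y ᵥ* A = 1) (i : Fin N) : y ᵥ* (A * Bm a i) = 1 := by
  rw [← vecMul_vecMul, hy, bm_row ha]

theorem vsum_int (ha : ∑ k, a k = 1) (hA : A.det ≠ 0) {F : R N → ℝ}
    (hF : ∀ i ∈ Ps a, IntegrableOn F ((fun x => (A * Bm a i) *ᵥ x) '' O N)) :
    ∫ x in (fun x => A *ᵥ x) '' Va a, F x =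
      ∑ i ∈ Ps a, ∫ x in (fun x => (A * Bm a i) *ᵥ x) '' O N, F x := by
  have e : (fun x => A *ᵥ x) '' Va a =
      ⋃ i : Ps a, (fun x => (A * Bm a i) *ᵥ x) '' O N := by
    rw [va_cover ha, image_iUnion₂, iUnion_subtype]
    simp only [main_img]
  have h1 : ∀ i : Ps a, NullMeasurableSet ((fun x => (A * Bm a i) *ᵥ x) '' O N) volume :=
    fun i => ((vsum_cn N).map (vsum_det hA i.2)).cl.measurableSet.nullMeasurableSet
  have h2 : Pairwise (Function.onFun (AEDisjoint volume)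
      fun i : Ps a => (fun x => (A * Bm a i) *ᵥ x) '' O N) := fun i j hij =>
    bm_disj A i.2 j.2 fun h => hij (Subtype.ext h)
  have h3 : IntegrableOn F (⋃ i : Ps a, (fun x => (A * Bm a i) *ᵥ x) '' O N) := by
    rw [integrableOn_finite_iUnion]
    intro i
    exact hF i.1 i.2
  rw [e, integral_iUnion_ae h1 h2 h3, tsum_fintype]
  exact Finset.sum_coe_sort (Ps a) fun i => ∫ x in (fun x => (A * Bm a i) *ᵥ x) '' O N, F x

theorem va_zz (ha : ∑ k, a k = 1) (hA : A.det ≠ 0) (hy : y ᵥ* A = 1) :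
    zz ((fun x => A *ᵥ x) '' Va a) y = |A.det| * ∑ i ∈ Ps a, a i := by
  rw [zz, vsum_int ha hA fun i hi => simp_int0 (vsum_det hA hi) (vsum_row ha hy i),
    Finset.mul_sum]
  refine Finset.sum_congr rfl fun i hi => ?_
  rw [← vsum_abs hi]
  exact simp_zz (vsum_det hA hi) (vsum_row ha hy i)

theorem va_mom (ha : ∑ k, a k = 1) (hA : A.det ≠ 0) (hy : y ᵥ* A = 1) :
    mom ((fun x => A *ᵥ x) '' Va a) y
      = |A.det| • (A * (∑ i ∈ Ps a, a i • (Bm a i * M0 N * (Bm a i)ᵀ)) * Aᵀ) := by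
  have e : mom ((fun x => A *ᵥ x) '' Va a) y =
      ∑ i ∈ Ps a, mom ((fun x => (A * Bm a i) *ᵥ x) '' O N) y := by
    ext k l
    rw [Matrix.sum_apply]
    exact vsum_int ha hA fun i hi => simp_int2 (vsum_det hA hi) (vsum_row ha hy i) k l
  rw [e, Matrix.mul_sum, Matrix.sum_mul, Finset.smul_sum]
  refine Finset.sum_congr rfl fun i hi => ?_
  rw [simp_mom (vsum_det hA hi) (vsum_row ha hy i), vsum_abs hi, transpose_mul, mul_smul,
    Matrix.mul_smul, Matrix.smul_mul]
  simp only [Matrix.mul_assoc]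

end Vale.Agent.P254L
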